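import Crest.Agent.Helper26.S0112.Phases

/-!
# S0112, package G (operator form): random phases on a finite family of bounded operators

For `x : Fin N → H →L[ℂ] H` and `θ : Fin N → ZMod 4` put `phSum x θ = ∑ i, ph (θ i) • x i`.

* `op_second_moment`     : `∑_θ ‖T (V_θ ξ)‖² = 4^N ∑_i ‖T (x_i ξ)‖²`
* `op_fourth_moment_le`  : `∑_θ ‖V_θ⋆ (V_θ ξ)‖² ≤ 4^N (‖∑_i x_i⋆ x_i ξ‖² + ∑_j re ⟪x_j ξ, (∑_i x_i x_i⋆) x_j ξ⟫)`
* `exists_phases`        : the selection used in the assembly (no sum over `θ` left).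
-/

set_option autoImplicit false

namespace Crest.Agent.Helper26.S0112

open Finset
open scoped ComplexConjugate InnerProductSpace

variable {H : Type*} [NormedAddCommGroup H] [InnerProductSpace ℂ H] [CompleteSpace H]
variable {F : Type*} [NormedAddCommGroup F] [InnerProductSpace ℂ F]
variable {N : ℕ}

/-- The phased sum `∑ i, ph (θ i) • x i`. -/
noncomputable def phSum (x : Fin N → H →L[ℂ] H) (θ : Fin N → ZMod 4) : H →L[ℂ] H :=
  ∑ i, ph (θ i) • x i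

omit [CompleteSpace H] in
theorem phSum_apply (x : Fin N → H →L[ℂ] H) (θ : Fin N → ZMod 4) (ξ : H) :
    phSum x θ ξ = ∑ i, ph (θ i) • x i ξ := by
  simp [phSum]

theorem star_phSum (x : Fin N → H →L[ℂ] H) (θ : Fin N → ZMod 4) :
    star (phSum x θ) = ∑ i, conj (ph (θ i)) • star (x i) := by
  simp [phSum, star_sum, star_smul]

theorem star_phSum_apply (x : Fin N → H →L[ℂ] H) (θ : Fin N → ZMod 4) (ξ : H) :
    star (phSum x θ) (phSum x θ ξ)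
      = ∑ i, ∑ j, (conj (ph (θ i)) * ph (θ j)) • star (x i) (x j ξ) := by
  rw [star_phSum, phSum_apply, _root_.sum_apply]
  refine Finset.sum_congr rfl fun i _ => ?_
  rw [_root_.smul_apply, map_sum, Finset.smul_sum]
  refine Finset.sum_congr rfl fun j _ => ?_
  rw [map_smul, smul_smul]

omit [CompleteSpace H] in
/-- G1, operator form. -/
theorem op_second_moment (x : Fin N → H →L[ℂ] H) (ξ : H) (T : H →L[ℂ] F) :
    ∑ θ : Fin N → ZMod 4, ‖T (phSum x θ ξ)‖ ^ 2 = 4 ^ N * ∑ i, ‖T (x i ξ)‖ ^ 2 := by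
  rw [← phase_second_moment]
  refine Finset.sum_congr rfl fun θ _ => ?_
  rw [phSum_apply, map_sum]
  simp only [map_smul]

theorem norm_sq_star_apply (a : H →L[ℂ] H) (y : H) :
    ‖star a y‖ ^ 2 = RCLike.re ⟪y, a (star a y)⟫_ℂ := by
  rw [← ContinuousLinearMap.adjoint_inner_left a (star a y) y, ← ContinuousLinearMap.star_eq_adjoint]
  rw [inner_self_eq_norm_sq_to_K]
  norm_cast

/-- G2, operator form. -/
theorem op_fourth_moment_le (x : Fin N → H →L[ℂ] H) (ξ : H) :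
    ∑ θ : Fin N → ZMod 4, ‖star (phSum x θ) (phSum x θ ξ)‖ ^ 2
      ≤ 4 ^ N * (‖∑ i, star (x i) (x i ξ)‖ ^ 2
          + ∑ j, RCLike.re ⟪x j ξ, (∑ i, x i * star (x i)) (x j ξ)⟫_ℂ) := by
  have h := phase_fourth_moment_le (fun i j => star (x i) (x j ξ))
  have h2 : ∑ i, ∑ j, ‖star (x i) (x j ξ)‖ ^ 2
      = ∑ j, RCLike.re ⟪x j ξ, (∑ i, x i * star (x i)) (x j ξ)⟫_ℂ := by
    rw [Finset.sum_comm]
    refine Finset.sum_congr rfl fun j _ => ?_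
    rw [_root_.sum_apply, inner_sum, map_sum]
    refine Finset.sum_congr rfl fun i _ => ?_
    rw [norm_sq_star_apply]
    rfl
  simp only [← star_phSum_apply] at h
  rw [h2] at h
  exact h

/-- **Selection of phases.**  For every `lam ≥ 0` there are coefficients `c` (of modulus
`1/√N`) such that `v = ∑ i, c i • x i` satisfies
`(1/N) ∑_i ‖T x_i ξ‖² - lam (‖C ξ‖² + (1/N) ∑_j re ⟪x_j ξ, R x_j ξ⟫) ≤ ‖T v ξ‖² - lam ‖v⋆ v ξ‖²`,
where `C = (1/N) ∑ x_i⋆ x_i` and `R = (1/N) ∑ x_i x_i⋆` (written out without the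
normalisations below). -/
theorem exists_phases (hN : 0 < N) (x : Fin N → H →L[ℂ] H) (ξ : H) (T : H →L[ℂ] F)
    (lam : ℝ) (hlam : 0 ≤ lam) :
    ∃ c : Fin N → ℂ,
      (1 / (N : ℝ)) * ∑ i, ‖T (x i ξ)‖ ^ 2
        - lam * ((1 / (N : ℝ) ^ 2) * (‖∑ i, star (x i) (x i ξ)‖ ^ 2
            + ∑ j, RCLike.re ⟪x j ξ, (∑ i, x i * star (x i)) (x j ξ)⟫_ℂ))
      ≤ ‖T ((∑ i, c i • x i) ξ)‖ ^ 2
        - lam * ‖star (∑ i, c i • x i) ((∑ i, c i • x i) ξ)‖ ^ 2 := by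
  classical
  have hNpos : (0 : ℝ) < N := by exact_mod_cast hN
  set A : ℝ := ∑ i, ‖T (x i ξ)‖ ^ 2 with hA
  set B : ℝ := ‖∑ i, star (x i) (x i ξ)‖ ^ 2
      + ∑ j, RCLike.re ⟪x j ξ, (∑ i, x i * star (x i)) (x j ξ)⟫_ℂ with hB
  -- the averaged inequality
  have h1 := op_second_moment x ξ T
  have h2 := op_fourth_moment_le x ξ
  have hsum : ∑ _θ : Fin N → ZMod 4, ((1 / (N : ℝ)) * A - lam * ((1 / (N : ℝ) ^ 2) * B))
      ≤ ∑ θ : Fin N → ZMod 4, ((1 / (N : ℝ)) * ‖T (phSum x θ ξ)‖ ^ 2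
          - lam * ((1 / (N : ℝ) ^ 2) * ‖star (phSum x θ) (phSum x θ ξ)‖ ^ 2)) := by
    have hR : ∑ θ : Fin N → ZMod 4, ((1 / (N : ℝ)) * ‖T (phSum x θ ξ)‖ ^ 2
          - lam * ((1 / (N : ℝ) ^ 2) * ‖star (phSum x θ) (phSum x θ ξ)‖ ^ 2))
        = (1 / (N : ℝ)) * ∑ θ : Fin N → ZMod 4, ‖T (phSum x θ ξ)‖ ^ 2
          - lam * ((1 / (N : ℝ) ^ 2) * ∑ θ : Fin N → ZMod 4,
              ‖star (phSum x θ) (phSum x θ ξ)‖ ^ 2) := by
      rw [Finset.sum_sub_distrib, ← Finset.mul_sum, ← Finset.mul_sum, ← Finset.mul_sum]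
    have hcard : ((Fintype.card (Fin N → ZMod 4) : ℕ) : ℝ) = 4 ^ N := by
      simp [ZMod.card]
    rw [hR, h1, Finset.sum_const, Finset.card_univ, nsmul_eq_mul, hcard]
    have h3 : lam * ((1 / (N : ℝ) ^ 2) * ∑ θ : Fin N → ZMod 4,
        ‖star (phSum x θ) (phSum x θ ξ)‖ ^ 2) ≤ lam * ((1 / (N : ℝ) ^ 2) * (4 ^ N * B)) := by
      refine mul_le_mul_of_nonneg_left ?_ hlam
      exact mul_le_mul_of_nonneg_left h2 (by positivity)
    have h4 : (4 : ℝ) ^ N * ((1 / (N : ℝ)) * A - lam * ((1 / (N : ℝ) ^ 2) * B))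
        = (1 / (N : ℝ)) * (4 ^ N * A) - lam * ((1 / (N : ℝ) ^ 2) * (4 ^ N * B)) := by ring
    rw [h4]
    linarith [h3]
  obtain ⟨θ, -, hθ⟩ := Finset.exists_le_of_sum_le (Finset.univ_nonempty) hsum
  -- normalise
  set s : ℝ := (Real.sqrt N)⁻¹ with hs
  have hs2 : s ^ 2 = 1 / (N : ℝ) := by
    rw [hs, inv_pow, Real.sq_sqrt hNpos.le, one_div]
  have hs4 : s ^ 4 = 1 / (N : ℝ) ^ 2 := by
    have : s ^ 4 = (s ^ 2) ^ 2 := by ring
    rw [this, hs2]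
    ring
  have hs0 : 0 ≤ s := by rw [hs]; positivity
  refine ⟨fun i => (s : ℂ) * ph (θ i), ?_⟩
  have hv : (∑ i, ((s : ℂ) * ph (θ i)) • x i) = (s : ℂ) • phSum x θ := by
    rw [phSum, Finset.smul_sum]
    exact Finset.sum_congr rfl fun i _ => by rw [smul_smul]
  rw [hv]
  have e1 : ‖T (((s : ℂ) • phSum x θ) ξ)‖ ^ 2 = (1 / (N : ℝ)) * ‖T (phSum x θ ξ)‖ ^ 2 := by
    rw [_root_.smul_apply, map_smul, norm_smul, mul_pow, Complex.norm_real, Real.norm_eq_abs,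
      sq_abs, hs2]
  have e2 : ‖star ((s : ℂ) • phSum x θ) (((s : ℂ) • phSum x θ) ξ)‖ ^ 2
      = (1 / (N : ℝ) ^ 2) * ‖star (phSum x θ) (phSum x θ ξ)‖ ^ 2 := by
    rw [star_smul, _root_.smul_apply, _root_.smul_apply, map_smul, smul_smul, norm_smul, mul_pow,
      norm_mul, RCLike.star_def, Complex.conj_ofReal, Complex.norm_real, Real.norm_eq_abs,
      ← hs4]
    congr 1
    rw [← abs_mul, sq_abs]
    ring
  rw [e1, e2]
  exact hθ

end Crest.Agent.Helper26.S0112
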