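import Mathlib

/-!
# S0112, package G: random phases (fourth roots of unity)

Pure finite-sum / inner-product algebra, no Prelude.

* `parseval` : an orthogonal family of scalar functions on a finite type.
* `phase_second_moment` (G1) : `∑_θ ‖∑_i ph(θ_i) • u_i‖² = 4^N ∑_i ‖u_i‖²`.
* `phase_fourth_moment` (G2) :
  `∑_θ ‖∑_i ∑_j conj(ph θ_i) ph(θ_j) • u_ij‖² = 4^N (‖∑_i u_ii‖² + ∑_{i ≠ j} ‖u_ij‖²)`.
* operator corollaries `op_second_moment`, `op_fourth_moment_le`.
-/

set_option autoImplicit false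

namespace Crest.Agent.Helper26.S0112

open Finset
open scoped ComplexConjugate InnerProductSpace

variable {E : Type*} [NormedAddCommGroup E] [InnerProductSpace ℂ E]

/-- Parseval for a family of scalar functions on a finite type which is orthogonal with
common square norm `K`. -/
theorem parseval {G A : Type*} [Fintype G] [Fintype A] [DecidableEq A]
    (χ : A → G → ℂ) (K : ℝ)
    (horth : ∀ a b, ∑ g, conj (χ a g) * χ b g = if a = b then (K : ℂ) else 0)
    (u : A → E) :
    ∑ g, ‖∑ a, χ a g • u a‖ ^ 2 = K * ∑ a, ‖u a‖ ^ 2 := by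
  have key : ∑ g, ⟪∑ a, χ a g • u a, ∑ a, χ a g • u a⟫_ℂ = (K : ℂ) * ∑ a, ⟪u a, u a⟫_ℂ := by
    have h1 : ∀ g, ⟪∑ a, χ a g • u a, ∑ a, χ a g • u a⟫_ℂ
        = ∑ a, ∑ b, (conj (χ a g) * χ b g) * ⟪u a, u b⟫_ℂ := by
      intro g
      rw [sum_inner]
      refine Finset.sum_congr rfl fun a _ => ?_
      rw [inner_sum]
      refine Finset.sum_congr rfl fun b _ => ?_
      rw [inner_smul_left, inner_smul_right]
      ring
    simp_rw [h1]
    rw [Finset.sum_comm]
    rw [Finset.mul_sum]
    refine Finset.sum_congr rfl fun a _ => ?_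
    rw [Finset.sum_comm]
    simp_rw [← Finset.sum_mul, horth]
    simp
  have h2 : ∀ x : E, ⟪x, x⟫_ℂ = ((‖x‖ ^ 2 : ℝ) : ℂ) := by
    intro x
    rw [inner_self_eq_norm_sq_to_K]
    push_cast
    rfl
  simp_rw [h2] at key
  exact_mod_cast key

/-- The phase attached to `t : ZMod 4`: the fourth root of unity `I ^ t`. -/
noncomputable def ph (t : ZMod 4) : ℂ := Complex.I ^ t.val

theorem ph_add_one (t : ZMod 4) : ph (t + 1) = Complex.I * ph t := by
  have h4 : Complex.I ^ 4 = 1 := Complex.I_pow_four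
  fin_cases t
  · show Complex.I ^ 1 = Complex.I * Complex.I ^ 0
    ring
  · show Complex.I ^ 2 = Complex.I * Complex.I ^ 1
    ring
  · show Complex.I ^ 3 = Complex.I * Complex.I ^ 2
    ring
  · show Complex.I ^ 0 = Complex.I * Complex.I ^ 3
    linear_combination -h4

theorem norm_ph (t : ZMod 4) : ‖ph t‖ = 1 := by
  unfold ph
  simp

theorem conj_ph_mul_ph (t : ZMod 4) : conj (ph t) * ph t = 1 := by
  rw [mul_comm, Complex.mul_conj, Complex.normSq_eq_norm_sq, norm_ph]
  simp

theorem ph_mul_conj_ph (t : ZMod 4) : ph t * conj (ph t) = 1 := by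
  rw [mul_comm, conj_ph_mul_ph]

variable {N : ℕ}

/-- The unit shift of coordinate `m`. -/
def sh (m : Fin N) : Fin N → ZMod 4 := Pi.single m (1 : ZMod 4)

theorem sh_same (m : Fin N) : sh m m = 1 := by simp [sh]

theorem sh_ne {m i : Fin N} (h : i ≠ m) : sh m i = 0 := by simp [sh, h]

/-- Shifting one coordinate of the phase vector. -/
theorem sum_shift (F : (Fin N → ZMod 4) → ℂ) (m : Fin N) :
    ∑ θ : Fin N → ZMod 4, F (θ + sh m) = ∑ θ, F θ :=
  Equiv.sum_comp (Equiv.addRight (sh m)) F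

theorem ph_shift_same (θ : Fin N → ZMod 4) (m : Fin N) :
    ph ((θ + sh m) m) = Complex.I * ph (θ m) := by
  rw [Pi.add_apply, sh_same, ph_add_one]

theorem ph_shift_ne (θ : Fin N → ZMod 4) {m i : Fin N} (h : i ≠ m) :
    ph ((θ + sh m) i) = ph (θ i) := by
  rw [Pi.add_apply, sh_ne h, add_zero]

/-- If shifting a coordinate multiplies `F` by a constant `c ≠ 1`, the sum of `F` vanishes. -/
theorem sum_eq_zero_of_shift (F : (Fin N → ZMod 4) → ℂ) (c : ℂ) (hc : c ≠ 1) (m : Fin N)
    (h : ∀ θ : Fin N → ZMod 4, F (θ + sh m) = c * F θ) : ∑ θ, F θ = 0 := by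
  have h1 : ∑ θ, F θ = c * ∑ θ, F θ := by
    conv_lhs => rw [← sum_shift F m]
    rw [Finset.mul_sum]
    exact Finset.sum_congr rfl fun θ _ => h θ
  have h2 : (1 - c) * ∑ θ, F θ = 0 := by linear_combination h1
  rcases mul_eq_zero.mp h2 with h3 | h3
  · exact absurd (by linear_combination -h3 : c = 1) hc
  · exact h3

theorem card_phases : (Fintype.card (Fin N → ZMod 4) : ℂ) = 4 ^ N := by
  simp [ZMod.card]

theorem I_ne_one : Complex.I ≠ 1 := by
  intro h
  have := congrArg Complex.im h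
  simp at this

theorem neg_I_ne_one : -Complex.I ≠ 1 := by
  intro h
  have := congrArg Complex.im h
  simp at this

theorem neg_one_ne_one' : (-1 : ℂ) ≠ 1 := by norm_num

/-- second moments: `∑_θ conj(ph θ_i) ph θ_j = 4^N δ_ij`. -/
theorem sum_conj_ph_mul_ph (i j : Fin N) :
    ∑ θ : Fin N → ZMod 4, conj (ph (θ i)) * ph (θ j) = if i = j then ((4 ^ N : ℝ) : ℂ) else 0 := by
  split_ifs with hij
  · subst hij
    simp only [conj_ph_mul_ph, Finset.sum_const, Finset.card_univ, nsmul_eq_mul, mul_one]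
    rw [card_phases]
    push_cast
    rfl
  · refine sum_eq_zero_of_shift _ Complex.I I_ne_one j fun θ => ?_
    rw [ph_shift_same, ph_shift_ne θ hij]
    ring

/-- G1. -/
theorem phase_second_moment (u : Fin N → E) :
    ∑ θ : Fin N → ZMod 4, ‖∑ i, ph (θ i) • u i‖ ^ 2 = 4 ^ N * ∑ i, ‖u i‖ ^ 2 :=
  parseval (fun (i : Fin N) (θ : Fin N → ZMod 4) => ph (θ i)) (4 ^ N)
    (fun a b => sum_conj_ph_mul_ph a b) u

/-- Off-diagonal index pairs. -/
abbrev Off (N : ℕ) := {p : Fin N × Fin N // p.1 ≠ p.2}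

/-- Splitting a double sum into its diagonal and off-diagonal parts. -/
theorem sum_sum_eq_diag_add_off {M : Type*} [AddCommMonoid M] (g : Fin N → Fin N → M) :
    ∑ i, ∑ j, g i j = ∑ i, g i i + ∑ p : Off N, g p.1.1 p.1.2 := by
  have h1 : ∀ i j, g i j = (if i = j then g i j else 0) + (if i = j then 0 else g i j) := by
    intro i j
    split_ifs <;> simp
  have h2 : ∑ i, ∑ j, g i j
      = ∑ i, ∑ j, (if i = j then g i j else 0) + ∑ i, ∑ j, (if i = j then 0 else g i j) := by
    rw [← Finset.sum_add_distrib]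
    refine Finset.sum_congr rfl fun i _ => ?_
    rw [← Finset.sum_add_distrib]
    exact Finset.sum_congr rfl fun j _ => h1 i j
  rw [h2]
  congr 1
  · refine Finset.sum_congr rfl fun i _ => ?_
    rw [Finset.sum_ite_eq]
    simp
  · rw [← Finset.sum_product' (s := (Finset.univ : Finset (Fin N))) (t := Finset.univ)
      (f := fun i j => if i = j then 0 else g i j)]
    rw [← Finset.sum_subtype (Finset.univ.filter fun p : Fin N × Fin N => p.1 ≠ p.2)
      (p := fun p : Fin N × Fin N => p.1 ≠ p.2) (by simp) (fun p => g p.1 p.2)]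
    rw [Finset.sum_filter]
    refine Finset.sum_congr rfl fun p _ => ?_
    by_cases h : p.1 = p.2 <;> simp [h]

/-- The orthogonal family behind the fourth moment: `none ↦ 1`,
`(i, j) ↦ conj (ph θ_i) * ph θ_j` for `i ≠ j`. -/
noncomputable def chi : Option (Off N) → (Fin N → ZMod 4) → ℂ
  | none, _ => 1
  | some p, θ => conj (ph (θ p.1.1)) * ph (θ p.1.2)

theorem chi_orth (a b : Option (Off N)) :
    ∑ θ : Fin N → ZMod 4, conj (chi a θ) * chi b θ
      = if a = b then ((4 ^ N : ℝ) : ℂ) else 0 := by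
  have hcard : ∑ _θ : Fin N → ZMod 4, (1 : ℂ) = ((4 ^ N : ℝ) : ℂ) := by
    simp only [Finset.sum_const, Finset.card_univ, nsmul_eq_mul, mul_one]
    rw [card_phases]
    push_cast
    rfl
  rcases a with _ | ⟨⟨⟨i, j⟩, hij⟩⟩ <;> rcases b with _ | ⟨⟨⟨k, l⟩, hkl⟩⟩
  · simp only [chi, map_one, mul_one, if_true]
    exact hcard
  · simp only [chi, map_one, one_mul]
    rw [sum_conj_ph_mul_ph, if_neg hkl]
    simp
  · simp only [chi, mul_one, map_mul, Complex.conj_conj]
    have : ∑ θ : Fin N → ZMod 4, ph (θ i) * conj (ph (θ j))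
        = ∑ θ : Fin N → ZMod 4, conj (ph (θ j)) * ph (θ i) :=
      Finset.sum_congr rfl fun θ _ => mul_comm _ _
    rw [this, sum_conj_ph_mul_ph, if_neg (Ne.symm hij)]
    simp
  · simp only [chi, map_mul, Complex.conj_conj]
    simp only [ne_eq] at hij hkl
    by_cases hpq : (i, j) = (k, l)
    · obtain ⟨rfl, rfl⟩ := Prod.mk.inj hpq
      rw [if_pos rfl, ← hcard]
      refine Finset.sum_congr rfl fun θ _ => ?_
      have h1 := ph_mul_conj_ph (θ i)
      have h2 := conj_ph_mul_ph (θ j)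
      linear_combination (conj (ph (θ j)) * ph (θ j)) * h1 + h2
    · have hne : ¬ ((some ⟨(i, j), hij⟩ : Option (Off N)) = some ⟨(k, l), hkl⟩) := by
        intro h
        apply hpq
        have := Option.some.inj h
        exact congrArg Subtype.val this
      rw [if_neg hne]
      by_cases hik : i = k
      · subst hik
        have hjl : j ≠ l := fun h => hpq (by rw [h])
        refine sum_eq_zero_of_shift _ (-Complex.I) neg_I_ne_one j fun θ => ?_
        rw [ph_shift_same, ph_shift_ne θ hij, ph_shift_ne θ (Ne.symm hjl)]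
        simp only [map_mul, Complex.conj_I]
        ring
      · by_cases hli : l = i
        · subst hli
          refine sum_eq_zero_of_shift _ (-1) neg_one_ne_one' l fun θ => ?_
          rw [ph_shift_same, ph_shift_ne θ (Ne.symm hij), ph_shift_ne θ (Ne.symm hik)]
          linear_combination (ph (θ l) * conj (ph (θ j)) * conj (ph (θ k)) * ph (θ l))
            * Complex.I_mul_I
        · refine sum_eq_zero_of_shift _ Complex.I I_ne_one i fun θ => ?_
          rw [ph_shift_same, ph_shift_ne θ (Ne.symm hij), ph_shift_ne θ (Ne.symm hik),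
            ph_shift_ne θ hli]
          ring

/-- G2 (fourth moment of the phases), exact form. -/
theorem phase_fourth_moment (u : Fin N → Fin N → E) :
    ∑ θ : Fin N → ZMod 4, ‖∑ i, ∑ j, (conj (ph (θ i)) * ph (θ j)) • u i j‖ ^ 2
      = 4 ^ N * (‖∑ i, u i i‖ ^ 2 + ∑ i, ∑ j, (if i = j then 0 else ‖u i j‖ ^ 2)) := by
  classical
  set U : Option (Off N) → E := fun a =>
    match a with
    | none => ∑ i, u i i
    | some p => u p.1.1 p.1.2 with hU
  have h1 : ∀ θ : Fin N → ZMod 4,
      ∑ i, ∑ j, (conj (ph (θ i)) * ph (θ j)) • u i j = ∑ a, chi a θ • U a := by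
    intro θ
    rw [sum_sum_eq_diag_add_off, Fintype.sum_option]
    congr 1
    · simp only [chi, hU, one_smul]
      exact Finset.sum_congr rfl fun i _ => by rw [conj_ph_mul_ph, one_smul]
  have h2 : ∑ i, ∑ j, (if i = j then 0 else ‖u i j‖ ^ 2) = ∑ p : Off N, ‖u p.1.1 p.1.2‖ ^ 2 := by
    rw [sum_sum_eq_diag_add_off]
    simp only [if_true, Finset.sum_const_zero, zero_add]
    exact Finset.sum_congr rfl fun p _ => if_neg p.2
  simp_rw [h1]
  rw [parseval chi (4 ^ N) chi_orth U, Fintype.sum_option, h2]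

/-- G2, inequality form. -/
theorem phase_fourth_moment_le (u : Fin N → Fin N → E) :
    ∑ θ : Fin N → ZMod 4, ‖∑ i, ∑ j, (conj (ph (θ i)) * ph (θ j)) • u i j‖ ^ 2
      ≤ 4 ^ N * (‖∑ i, u i i‖ ^ 2 + ∑ i, ∑ j, ‖u i j‖ ^ 2) := by
  rw [phase_fourth_moment]
  refine mul_le_mul_of_nonneg_left ?_ (by positivity)
  refine add_le_add le_rfl (Finset.sum_le_sum fun i _ => Finset.sum_le_sum fun j _ => ?_)
  split_ifs
  · positivity
  · exact le_rfl

end Crest.Agent.Helper26.S0112
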