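import Mathlib
import Crest.Prelude.Def_ModularData

/-!
# S0112, leaf I1: unpacking `ultraMean`

* `windowMean_eq_intervalIntegral` : the window mean as an interval integral.
* `windowMean_mem_Icc` : `0 ≤ f ≤ B` gives `0 ≤ windowMean f k ≤ B`.
* `tendsto_windowMean` : for bounded `f` the window means converge along `ω` to `ultraMean ω f`.
* `eventually_lt_windowMean` : `c ≤ ultraMean ω f`, `c' < c` ⟹ `∀ᶠ k in ω, c' < windowMean f k`.
* `eventually_windowMean` : the shape asked by the assembly (`3 * c / 4 < windowMean f k`).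
* `exists_large_window` : with `ω ≤ atTop`, such `k` exist beyond any bound.
-/

set_option autoImplicit false

namespace Crest.Agent.Helper26.S0112

open Filter MeasureTheory Crest.OpAlg
open scoped Topology

/-- The window mean as an interval integral (any `f`, any `k`, also `k = 0`). -/
theorem windowMean_eq_intervalIntegral (f : ℝ → ℝ) (k : ℕ) :
    windowMean f k = (2 * (k : ℝ))⁻¹ * ∫ t in (-(k : ℝ))..(k : ℝ), f t := by
  have hk : (-(k : ℝ)) ≤ (k : ℝ) := by
    have : (0 : ℝ) ≤ k := Nat.cast_nonneg k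
    linarith
  have hdef : windowMean f k = ⨍ t in Set.Icc (-(k : ℝ)) (k : ℝ), f t := rfl
  rw [hdef, setAverage_eq, intervalIntegral.integral_of_le hk,
    integral_Icc_eq_integral_Ioc, smul_eq_mul]
  congr 1
  rw [Measure.real, Real.volume_Icc, ENNReal.toReal_ofReal (by linarith)]
  ring_nf

/-- Window means of a function with values in `[0, B]` lie in `[0, B]`. -/
theorem windowMean_mem_Icc (f : ℝ → ℝ) (B : ℝ) (h0 : ∀ t, 0 ≤ f t) (hB : ∀ t, f t ≤ B)
    (k : ℕ) : windowMean f k ∈ Set.Icc (0 : ℝ) B := by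
  have hB0 : 0 ≤ B := (h0 0).trans (hB 0)
  have hk0 : (0 : ℝ) ≤ k := Nat.cast_nonneg k
  rw [windowMean_eq_intervalIntegral]
  have hle : (-(k : ℝ)) ≤ (k : ℝ) := by linarith
  by_cases hint : IntervalIntegrable f volume (-(k : ℝ)) (k : ℝ)
  · have h1 : 0 ≤ ∫ t in (-(k : ℝ))..(k : ℝ), f t :=
      intervalIntegral.integral_nonneg hle fun t _ => h0 t
    have h2 : ∫ t in (-(k : ℝ))..(k : ℝ), f t ≤ ∫ _t in (-(k : ℝ))..(k : ℝ), B :=
      intervalIntegral.integral_mono_on hle hint intervalIntegrable_const fun t _ => hB t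
    rw [intervalIntegral.integral_const, smul_eq_mul] at h2
    constructor
    · positivity
    · rcases eq_or_lt_of_le hk0 with hk | hk
      · rw [← hk]
        simpa using hB0
      · rw [inv_mul_le_iff₀ (by positivity)]
        linarith
  · rw [intervalIntegral.integral_undef hint, mul_zero]
    exact ⟨le_rfl, hB0⟩

/-- For bounded `f` the window means converge along the ultrafilter to `ultraMean ω f`. -/
theorem tendsto_windowMean (ω : Ultrafilter ℕ) (f : ℝ → ℝ) (B : ℝ) (h0 : ∀ t, 0 ≤ f t)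
    (hB : ∀ t, f t ≤ B) :
    Tendsto (windowMean f) (ω : Filter ℕ) (𝓝 (ultraMean ω f)) := by
  have hsub : ((ω.map (windowMean f) : Ultrafilter ℝ) : Filter ℝ) ≤ 𝓟 (Set.Icc (0 : ℝ) B) := by
    rw [Ultrafilter.coe_map, le_principal_iff, mem_map]
    exact Filter.Eventually.of_forall fun k => windowMean_mem_Icc f B h0 hB k
  obtain ⟨x, -, hx⟩ := isCompact_Icc.ultrafilter_le_nhds (ω.map (windowMean f)) hsub
  have hx' : Tendsto (windowMean f) (ω : Filter ℕ) (𝓝 x) := hx
  have : ultraMean ω f = x := hx'.limUnder_eq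
  rw [this]
  exact hx'

/-- If `c ≤ ultraMean ω f` and `c' < c` then `ω`-almost every window mean exceeds `c'`. -/
theorem eventually_lt_windowMean (ω : Ultrafilter ℕ) (f : ℝ → ℝ) (B : ℝ) (h0 : ∀ t, 0 ≤ f t)
    (hB : ∀ t, f t ≤ B) (c c' : ℝ) (hc : c' < c) (h : c ≤ ultraMean ω f) :
    ∀ᶠ k in (ω : Filter ℕ), c' < windowMean f k :=
  (tendsto_windowMean ω f B h0 hB).eventually_const_lt (lt_of_lt_of_le hc h)

/-- Leaf I1 in the shape asked by the assembly. -/
theorem eventually_windowMean (ω : Ultrafilter ℕ) (f : ℝ → ℝ) (_hf : Continuous f) (B : ℝ)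
    (h0 : ∀ t, 0 ≤ f t) (hB : ∀ t, f t ≤ B) (c : ℝ) (hc : 0 < c)
    (h : c ≤ ultraMean ω f) :
    ∀ᶠ k in (ω : Filter ℕ), 3 * c / 4 < windowMean f k :=
  eventually_lt_windowMean ω f B h0 hB c (3 * c / 4) (by linarith) h

/-- A set of an ultrafilter finer than `atTop` contains arbitrarily large elements. -/
theorem exists_ge_of_eventually (ω : Ultrafilter ℕ) (hω : (ω : Filter ℕ) ≤ atTop)
    (p : ℕ → Prop) (hp : ∀ᶠ k in (ω : Filter ℕ), p k) (K0 : ℕ) : ∃ k, K0 ≤ k ∧ p k := by
  have h1 : ∀ᶠ k in (ω : Filter ℕ), K0 ≤ k := hω (eventually_ge_atTop K0)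
  exact (h1.and hp).exists

/-- With a free ultrafilter: beyond any bound there is a window whose mean exceeds `c'`. -/
theorem exists_large_window (ω : Ultrafilter ℕ) (hω : (ω : Filter ℕ) ≤ atTop) (f : ℝ → ℝ)
    (B : ℝ) (h0 : ∀ t, 0 ≤ f t) (hB : ∀ t, f t ≤ B) (c c' : ℝ) (hc : c' < c)
    (h : c ≤ ultraMean ω f) (K0 : ℕ) :
    ∃ k, K0 ≤ k ∧ c' < windowMean f k :=
  exists_ge_of_eventually ω hω _ (eventually_lt_windowMean ω f B h0 hB c c' hc h) K0

end Crest.Agent.Helper26.S0112
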